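import Mathlib

/-!
# Row 211, package (F5) COST of `notes/row211_plan.md`

Constants of the plan: `c = 1/1000`, `M = 4000000`, `r = c^2/800`.
`fanS i = s_i`, `fanTm i = τm_i`, `fanTp i = τp_i`, `fanH i = h_i`,
`fanN2 i = ‖n_i‖² = 1 + (c²/16)(1 + 10 s_i² + s_i⁴)`.

Main result: `fan_cost`:
`∑ i ∈ range (M+1), h_i² (τp_i - τm_i) / (2 √(‖n_i‖²)) ≤ 1/4 - 13/(48·10⁹)`.
-/

namespace Crest.Agent.Helper25

open Finset

noncomputable section

/-- `s_i = -1 + 2 i / M`. -/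
def fanS (i : ℕ) : ℝ := -1 + 2 * (i : ℝ) / 4000000

/-- `τm_i = max (-1) (s_i - 1/M)`. -/
def fanTm (i : ℕ) : ℝ := max (-1) (fanS i - 1 / 4000000)

/-- `τp_i = min 1 (s_i + 1/M)`. -/
def fanTp (i : ℕ) : ℝ := min 1 (fanS i + 1 / 4000000)

/-- `h_i = 1/2 + (c²/16)(s_i² + s_i⁴) + r`. -/
def fanH (i : ℕ) : ℝ :=
  1 / 2 + ((1 / 1000 : ℝ) ^ 2 / 16) * (fanS i ^ 2 + fanS i ^ 4) + (1 / 1000 : ℝ) ^ 2 / 800

/-- `‖n_i‖² = 1 + (c²/16)(1 + 10 s_i² + s_i⁴)`. -/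
def fanN2 (i : ℕ) : ℝ := 1 + ((1 / 1000 : ℝ) ^ 2 / 16) * (1 + 10 * fanS i ^ 2 + fanS i ^ 4)

/-! ### Elementary side facts -/

theorem fanS_zero : fanS 0 = -1 := by simp [fanS]

theorem fanS_last : fanS 4000000 = 1 := by norm_num [fanS]

theorem fanS_succ (i : ℕ) : fanS (i + 1) = fanS i + 2 / 4000000 := by
  simp only [fanS]; push_cast; ring

theorem fanS_mem (i : ℕ) (hi : i ≤ 4000000) : -1 ≤ fanS i ∧ fanS i ≤ 1 := by
  have h0 : (0 : ℝ) ≤ (i : ℝ) := Nat.cast_nonneg i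
  have h1 : (i : ℝ) ≤ 4000000 := by exact_mod_cast hi
  simp only [fanS]
  constructor <;> linarith

theorem abs_fanS_le (i : ℕ) (hi : i ≤ 4000000) : |fanS i| ≤ 1 :=
  abs_le.mpr (fanS_mem i hi)

theorem fanS_sq_le (i : ℕ) (hi : i ≤ 4000000) : fanS i ^ 2 ≤ 1 := by
  have := abs_fanS_le i hi
  have h2 : fanS i ^ 2 = |fanS i| ^ 2 := (sq_abs _).symm
  rw [h2]
  exact pow_le_one₀ (abs_nonneg _) this

theorem fanTm_zero : fanTm 0 = -1 := by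
  simp only [fanTm, fanS_zero]
  exact max_eq_left (by norm_num)

theorem fanTp_last : fanTp 4000000 = 1 := by
  simp only [fanTp, fanS_last]
  exact min_eq_left (by norm_num)

theorem fanTm_of_pos (i : ℕ) (hi : 1 ≤ i) : fanTm i = fanS i - 1 / 4000000 := by
  have h1 : (1 : ℝ) ≤ (i : ℝ) := by exact_mod_cast hi
  simp only [fanTm, fanS]
  exact max_eq_right (by linarith)

theorem fanTp_of_lt (i : ℕ) (hi : i < 4000000) : fanTp i = fanS i + 1 / 4000000 := by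
  have h1 : (i : ℝ) + 1 ≤ 4000000 := by exact_mod_cast hi
  simp only [fanTp, fanS]
  exact min_eq_right (by linarith)

/-- Consecutive sectors share their boundary slope: `τp_i = τm_{i+1}`. -/
theorem fanTp_eq_fanTm_succ (i : ℕ) (hi : i < 4000000) : fanTp i = fanTm (i + 1) := by
  rw [fanTp_of_lt i hi, fanTm_of_pos (i + 1) (by omega), fanS_succ]; ring

theorem fanTm_mem (i : ℕ) (hi : i ≤ 4000000) : -1 ≤ fanTm i ∧ fanTm i ≤ 1 := by
  obtain ⟨h1, h2⟩ := fanS_mem i hi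
  simp only [fanTm]
  exact ⟨le_max_left _ _, max_le (by norm_num) (by linarith)⟩

theorem fanTp_mem (i : ℕ) (hi : i ≤ 4000000) : -1 ≤ fanTp i ∧ fanTp i ≤ 1 := by
  obtain ⟨h1, h2⟩ := fanS_mem i hi
  simp only [fanTp]
  exact ⟨le_min (by norm_num) (by linarith), min_le_left _ _⟩

theorem fanTm_le_fanS (i : ℕ) (hi : i ≤ 4000000) : fanTm i ≤ fanS i := by
  obtain ⟨h1, h2⟩ := fanS_mem i hi
  simp only [fanTm]
  exact max_le h1 (by linarith)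

theorem fanS_le_fanTp (i : ℕ) (hi : i ≤ 4000000) : fanS i ≤ fanTp i := by
  obtain ⟨h1, h2⟩ := fanS_mem i hi
  simp only [fanTp]
  exact le_min h2 (by linarith)

theorem fanTm_le_fanTp (i : ℕ) (hi : i ≤ 4000000) : fanTm i ≤ fanTp i :=
  (fanTm_le_fanS i hi).trans (fanS_le_fanTp i hi)

theorem fanS_sub_le_fanTm (i : ℕ) : fanS i - 1 / 4000000 ≤ fanTm i := le_max_right _ _

theorem fanTp_le_fanS_add (i : ℕ) : fanTp i ≤ fanS i + 1 / 4000000 := min_le_right _ _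

theorem fanH_pos (i : ℕ) : 0 < fanH i := by
  have h2 : 0 ≤ fanS i ^ 2 := sq_nonneg _
  have h4 : 0 ≤ fanS i ^ 4 := by positivity
  simp only [fanH]
  have : 0 ≤ ((1 / 1000 : ℝ) ^ 2 / 16) * (fanS i ^ 2 + fanS i ^ 4) := by positivity
  linarith [show (0 : ℝ) < (1 / 1000 : ℝ) ^ 2 / 800 by norm_num]

theorem fanH_ge_half (i : ℕ) : 1 / 2 < fanH i := by
  have h2 : 0 ≤ fanS i ^ 2 := sq_nonneg _
  have h4 : 0 ≤ fanS i ^ 4 := by positivity
  simp only [fanH]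
  have : 0 ≤ ((1 / 1000 : ℝ) ^ 2 / 16) * (fanS i ^ 2 + fanS i ^ 4) := by positivity
  linarith [show (0 : ℝ) < (1 / 1000 : ℝ) ^ 2 / 800 by norm_num]

theorem fanN2_ge_one (i : ℕ) : 1 ≤ fanN2 i := by
  have h2 : 0 ≤ fanS i ^ 2 := sq_nonneg _
  have h4 : 0 ≤ fanS i ^ 4 := by positivity
  simp only [fanN2]
  have : 0 ≤ ((1 / 1000 : ℝ) ^ 2 / 16) * (1 + 10 * fanS i ^ 2 + fanS i ^ 4) := by positivity
  linarith

theorem fanN2_pos (i : ℕ) : 0 < fanN2 i := lt_of_lt_of_le one_pos (fanN2_ge_one i)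

/-! ### Closed forms of power sums -/

theorem sum_shift_sq (m : ℝ) (n : ℕ) :
    ∑ i ∈ range n, (2 * (i : ℝ) - m) ^ 2 =
      4 * (((n : ℝ) - 1) * n * (2 * n - 1) / 6) - 4 * m * ((n : ℝ) * (n - 1) / 2) + m ^ 2 * n := by
  induction n with
  | zero => simp
  | succ k ih =>
    rw [sum_range_succ, ih]; push_cast; ring

theorem sum_shift_pow4 (m : ℝ) (n : ℕ) :
    ∑ i ∈ range n, (2 * (i : ℝ) - m) ^ 4 =
      16 * (((n : ℝ) - 1) * n * (2 * n - 1) * (3 * n ^ 2 - 3 * n - 1) / 30)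
        - 32 * m * ((n : ℝ) * (n - 1) / 2) ^ 2
        + 24 * m ^ 2 * (((n : ℝ) - 1) * n * (2 * n - 1) / 6)
        - 8 * m ^ 3 * ((n : ℝ) * (n - 1) / 2) + m ^ 4 * n := by
  induction n with
  | zero => simp
  | succ k ih =>
    rw [sum_range_succ, ih]; push_cast; ring

theorem fanS_eq (i : ℕ) : fanS i = (2 * (i : ℝ) - 4000000) / 4000000 := by
  simp only [fanS]; ring

theorem sum_fanS_sq :
    ∑ i ∈ range 4000001, fanS i ^ 2 = 4000001 * 4000002 / (3 * 4000000) := by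
  have h : ∀ i ∈ range 4000001, fanS i ^ 2 = (2 * (i : ℝ) - 4000000) ^ 2 / 4000000 ^ 2 := by
    intro i _; rw [fanS_eq]; ring
  rw [sum_congr rfl h, ← sum_div, sum_shift_sq]
  norm_num

theorem sum_fanS_pow4 :
    ∑ i ∈ range 4000001, fanS i ^ 4 =
      (16 * ((4000000 : ℝ) * 4000001 * 8000001 * (3 * 4000001 ^ 2 - 3 * 4000001 - 1) / 30)
        - 32 * 4000000 * ((4000001 : ℝ) * 4000000 / 2) ^ 2
        + 24 * 4000000 ^ 2 * ((4000000 : ℝ) * 4000001 * 8000001 / 6)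
        - 8 * 4000000 ^ 3 * ((4000001 : ℝ) * 4000000 / 2) + 4000000 ^ 4 * 4000001) / 4000000 ^ 4 := by
  have h : ∀ i ∈ range 4000001, fanS i ^ 4 = (2 * (i : ℝ) - 4000000) ^ 4 / 4000000 ^ 4 := by
    intro i _; rw [fanS_eq]; ring
  rw [sum_congr rfl h, ← sum_div, sum_shift_pow4]
  norm_num

/-! ### The term-wise bound -/

/-- `1/√(1+u) ≤ 1 - u/2 + 3u²/8` for `u ≥ 0`. -/
theorem inv_sqrt_one_add_le (u : ℝ) (hu : 0 ≤ u) :
    1 / Real.sqrt (1 + u) ≤ 1 - u / 2 + 3 * u ^ 2 / 8 := by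
  have hg : 0 < 1 - u / 2 + 3 * u ^ 2 / 8 := by nlinarith [sq_nonneg (u - 2 / 3)]
  have hs : 0 < Real.sqrt (1 + u) := Real.sqrt_pos.mpr (by linarith)
  rw [div_le_iff₀ hs]
  have h1 : (1 : ℝ) ≤ (1 - u / 2 + 3 * u ^ 2 / 8) ^ 2 * (1 + u) := by
    have : (1 - u / 2 + 3 * u ^ 2 / 8) ^ 2 * (1 + u) - 1
        = u ^ 3 * (5 / 8 - 15 / 64 * u + 9 / 64 * u ^ 2) := by ring
    have h3 : 0 ≤ u ^ 3 := by positivity
    have h4 : 0 ≤ 5 / 8 - 15 / 64 * u + 9 / 64 * u ^ 2 := by nlinarith [sq_nonneg (u - 5 / 6)]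
    nlinarith [mul_nonneg h3 h4]
  have h2 : Real.sqrt ((1 - u / 2 + 3 * u ^ 2 / 8) ^ 2 * (1 + u))
      = (1 - u / 2 + 3 * u ^ 2 / 8) * Real.sqrt (1 + u) := by
    rw [Real.sqrt_mul (sq_nonneg _), Real.sqrt_sq hg.le]
  calc (1 : ℝ) = Real.sqrt 1 := Real.sqrt_one.symm
    _ ≤ Real.sqrt ((1 - u / 2 + 3 * u ^ 2 / 8) ^ 2 * (1 + u)) := Real.sqrt_le_sqrt h1
    _ = (1 - u / 2 + 3 * u ^ 2 / 8) * Real.sqrt (1 + u) := h2

/-- The polynomial majorant of the `i`-th normalised term. -/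
def fanQ (s : ℝ) : ℝ :=
  1 / 8 + ((1 / 1000 : ℝ) ^ 2 / 800) / 2 + (1 / 1000 : ℝ) ^ 4 / 20
    + ((1 / 1000 : ℝ) ^ 2 / 256) * (-1 - 2 * s ^ 2 + 7 * s ^ 4)

theorem fan_term_le (i : ℕ) (hi : i ≤ 4000000) :
    fanH i ^ 2 / (2 * Real.sqrt (fanN2 i)) ≤ fanQ (fanS i) := by
  set s := fanS i with hs
  have hs2 : s ^ 2 ≤ 1 := fanS_sq_le i hi
  have hs20 : 0 ≤ s ^ 2 := sq_nonneg _
  have hs4 : s ^ 4 ≤ 1 := by
    have : s ^ 4 = (s ^ 2) ^ 2 := by ring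
    rw [this]; exact pow_le_one₀ hs20 hs2
  have hs40 : 0 ≤ s ^ 4 := by positivity
  set η : ℝ := ((1 / 1000 : ℝ) ^ 2 / 16) * (s ^ 2 + s ^ 4) + (1 / 1000 : ℝ) ^ 2 / 800 with hη
  set u : ℝ := ((1 / 1000 : ℝ) ^ 2 / 16) * (1 + 10 * s ^ 2 + s ^ 4) with hu
  have hη0 : 0 ≤ η := by rw [hη]; positivity
  have hη1 : η ≤ 13 / 10 ^ 8 := by rw [hη]; nlinarith
  have hu0 : 0 ≤ u := by rw [hu]; positivity
  have hu1 : u ≤ 75 / 10 ^ 8 := by rw [hu]; nlinarith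
  have hH : fanH i = 1 / 2 + η := by simp only [fanH, hη, ← hs]; ring
  have hN : fanN2 i = 1 + u := by simp only [fanN2, hu, ← hs]
  rw [hH, hN]
  have hsq : 0 < Real.sqrt (1 + u) := Real.sqrt_pos.mpr (by linarith)
  have h1 : (1 / 2 + η) ^ 2 / (2 * Real.sqrt (1 + u))
      = ((1 / 2 + η) ^ 2 / 2) * (1 / Real.sqrt (1 + u)) := by
    field_simp
  rw [h1]
  have h2 : ((1 / 2 + η) ^ 2 / 2) * (1 / Real.sqrt (1 + u))
      ≤ ((1 / 2 + η) ^ 2 / 2) * (1 - u / 2 + 3 * u ^ 2 / 8) :=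
    mul_le_mul_of_nonneg_left (inv_sqrt_one_add_le u hu0) (by positivity)
  refine h2.trans ?_
  -- expand
  have hexp : ((1 / 2 + η) ^ 2 / 2) * (1 - u / 2 + 3 * u ^ 2 / 8)
      = 1 / 8 + η / 2 - u / 16
        + (3 * u ^ 2 / 64 - η * u / 4 + 3 * η * u ^ 2 / 16 + η ^ 2 / 2 - η ^ 2 * u / 4
            + 3 * η ^ 2 * u ^ 2 / 16) := by ring
  have hmain : 1 / 8 + η / 2 - u / 16
      = 1 / 8 + ((1 / 1000 : ℝ) ^ 2 / 800) / 2
        + ((1 / 1000 : ℝ) ^ 2 / 256) * (-1 - 2 * s ^ 2 + 7 * s ^ 4) := by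
    rw [hη, hu]; ring
  have hu2 : u ^ 2 ≤ (75 / 10 ^ 8) ^ 2 := pow_le_pow_left₀ hu0 hu1 2
  have hη2 : η ^ 2 ≤ (13 / 10 ^ 8) ^ 2 := pow_le_pow_left₀ hη0 hη1 2
  have hu20 : 0 ≤ u ^ 2 := sq_nonneg _
  have hη20 : 0 ≤ η ^ 2 := sq_nonneg _
  have e1 : η * u ^ 2 ≤ (13 / 10 ^ 8) * (75 / 10 ^ 8) ^ 2 :=
    mul_le_mul hη1 hu2 hu20 (by norm_num)
  have e2 : η ^ 2 * u ^ 2 ≤ (13 / 10 ^ 8) ^ 2 * (75 / 10 ^ 8) ^ 2 :=
    mul_le_mul hη2 hu2 hu20 (by norm_num)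
  have e3 : 0 ≤ η * u := mul_nonneg hη0 hu0
  have e4 : 0 ≤ η ^ 2 * u := mul_nonneg hη20 hu0
  have hE : 3 * u ^ 2 / 64 - η * u / 4 + 3 * η * u ^ 2 / 16 + η ^ 2 / 2 - η ^ 2 * u / 4
            + 3 * η ^ 2 * u ^ 2 / 16 ≤ (1 / 1000 : ℝ) ^ 4 / 20 := by
    have : 3 * u ^ 2 / 64 - η * u / 4 + 3 * η * u ^ 2 / 16 + η ^ 2 / 2 - η ^ 2 * u / 4
            + 3 * η ^ 2 * u ^ 2 / 16
        ≤ 3 * (75 / 10 ^ 8) ^ 2 / 64 + 3 * ((13 / 10 ^ 8) * (75 / 10 ^ 8) ^ 2) / 16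
          + (13 / 10 ^ 8) ^ 2 / 2 + 3 * ((13 / 10 ^ 8) ^ 2 * (75 / 10 ^ 8) ^ 2) / 16 := by
      linarith
    refine this.trans ?_
    norm_num
  rw [hexp, hmain]
  simp only [fanQ]
  linarith

/-- The weights `τp_i - τm_i`: `1/M` at the two ends, `2/M` otherwise. -/
theorem fan_weight (i : ℕ) (hi : i ≤ 4000000) :
    fanTp i - fanTm i = 2 / 4000000 - (if i = 0 then 1 / 4000000 else 0)
      - (if i = 4000000 then 1 / 4000000 else 0) := by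
  rcases Nat.eq_zero_or_pos i with h0 | h0
  · subst h0
    rw [fanTm_zero, fanTp_of_lt 0 (by norm_num), fanS_zero]
    norm_num
  · rcases Nat.lt_or_ge i 4000000 with h1 | h1
    · rw [fanTm_of_pos i h0, fanTp_of_lt i h1]
      have h0' : i ≠ 0 := by omega
      have h1' : i ≠ 4000000 := by omega
      simp only [h0', h1', if_false]
      ring
    · have hi' : i = 4000000 := le_antisymm hi h1
      subst hi'
      rw [fanTp_last, fanTm_of_pos 4000000 (by norm_num), fanS_last]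
      norm_num

theorem fan_weight_nonneg (i : ℕ) (hi : i ≤ 4000000) : 0 ≤ fanTp i - fanTm i :=
  sub_nonneg.mpr (fanTm_le_fanTp i hi)

/-- **(F5) COST.** -/
theorem fan_cost :
    ∑ i ∈ range 4000001, fanH i ^ 2 * (fanTp i - fanTm i) / (2 * Real.sqrt (fanN2 i))
      ≤ 1 / 4 - 13 / (48 * 10 ^ 9) := by
  have hQ1 : fanQ 1 = fanQ (-1) := by simp only [fanQ]; ring
  have key : ∀ i ∈ range 4000001,
      fanH i ^ 2 * (fanTp i - fanTm i) / (2 * Real.sqrt (fanN2 i))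
        ≤ (2 / 4000000) * fanQ (fanS i) - (if i = 0 then fanQ (-1) / 4000000 else 0)
          - (if i = 4000000 then fanQ 1 / 4000000 else 0) := by
    intro i hi
    have hi' : i ≤ 4000000 := by
      have := mem_range.mp hi; omega
    have hw := fan_weight_nonneg i hi'
    have ht := fan_term_le i hi'
    have h1 : fanH i ^ 2 * (fanTp i - fanTm i) / (2 * Real.sqrt (fanN2 i))
        = (fanTp i - fanTm i) * (fanH i ^ 2 / (2 * Real.sqrt (fanN2 i))) := by ring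
    rw [h1]
    refine (mul_le_mul_of_nonneg_left ht hw).trans (le_of_eq ?_)
    rw [fan_weight i hi']
    by_cases h0 : i = 0
    · subst h0
      simp only [fanS_zero]
      norm_num
      ring
    · by_cases hM : i = 4000000
      · subst hM
        simp only [fanS_last]
        norm_num
        ring
      · simp only [h0, hM, if_false]
        ring
  refine (sum_le_sum key).trans ?_
  rw [sum_sub_distrib, sum_sub_distrib, sum_ite_eq', sum_ite_eq', ← mul_sum]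
  simp only [mem_range, show (0 : ℕ) < 4000001 by norm_num,
    show (4000000 : ℕ) < 4000001 by norm_num, if_true]
  have hsum : ∑ i ∈ range 4000001, fanQ (fanS i)
      = 4000001 * (1 / 8 + ((1 / 1000 : ℝ) ^ 2 / 800) / 2 + (1 / 1000 : ℝ) ^ 4 / 20
          - (1 / 1000 : ℝ) ^ 2 / 256)
        + ((1 / 1000 : ℝ) ^ 2 / 256) * (-2) * ∑ i ∈ range 4000001, fanS i ^ 2
        + ((1 / 1000 : ℝ) ^ 2 / 256) * 7 * ∑ i ∈ range 4000001, fanS i ^ 4 := by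
    have hterm : ∀ i ∈ range 4000001, fanQ (fanS i)
        = (1 / 8 + ((1 / 1000 : ℝ) ^ 2 / 800) / 2 + (1 / 1000 : ℝ) ^ 4 / 20
            - (1 / 1000 : ℝ) ^ 2 / 256)
          + ((1 / 1000 : ℝ) ^ 2 / 256) * (-2) * fanS i ^ 2
          + ((1 / 1000 : ℝ) ^ 2 / 256) * 7 * fanS i ^ 4 := by
      intro i _; simp only [fanQ]; ring
    rw [sum_congr rfl hterm, sum_add_distrib, sum_add_distrib, sum_const, card_range,
      ← mul_sum, ← mul_sum, nsmul_eq_mul]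
    push_cast
    ring
  rw [hsum, sum_fanS_sq, sum_fanS_pow4]
  simp only [fanQ]
  norm_num

/-- `Fin`-indexed form of `fan_cost`. -/
theorem fan_cost_fin :
    ∑ i : Fin 4000001, fanH i ^ 2 * (fanTp i - fanTm i) / (2 * Real.sqrt (fanN2 i))
      ≤ 1 / 4 - 13 / (48 * 10 ^ 9) := by
  rw [Fin.sum_univ_eq_sum_range
    (fun i => fanH i ^ 2 * (fanTp i - fanTm i) / (2 * Real.sqrt (fanN2 i))) 4000001]
  exact fan_cost

/-- Total base area of the two fans (lower + upper), in the form used by the assembly: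
each base has area `√2 h_i² (τp_i - τm_i) / (2 ‖n_i‖)`. -/
theorem fan_cost_total :
    2 * ∑ i ∈ range 4000001,
        Real.sqrt 2 * fanH i ^ 2 * (fanTp i - fanTm i) / (2 * Real.sqrt (fanN2 i))
      ≤ Real.sqrt 2 * (1 / 2 - 13 / (24 * 10 ^ 9)) := by
  have h : ∀ i ∈ range 4000001,
      Real.sqrt 2 * fanH i ^ 2 * (fanTp i - fanTm i) / (2 * Real.sqrt (fanN2 i))
        = Real.sqrt 2 * (fanH i ^ 2 * (fanTp i - fanTm i) / (2 * Real.sqrt (fanN2 i))) := by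
    intro i _; ring
  rw [sum_congr rfl h, ← mul_sum]
  have h2 : (0 : ℝ) ≤ Real.sqrt 2 := Real.sqrt_nonneg 2
  nlinarith [fan_cost, mul_le_mul_of_nonneg_left fan_cost h2]

/-- The saving is exactly the `ε = 1/2000` value of the window of S0325:
`1/2 - 13/(24·10⁹) = 1/2 - (13/6000)(1/2000)²`. -/
theorem fan_saving_eq : (1 / 2 - 13 / (24 * 10 ^ 9) : ℝ) = 1 / 2 - 13 / 6000 * (1 / 2000) ^ 2 := by
  norm_num

end

end Crest.Agent.Helper25
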