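import Mathlib

/-!
# S0423 — the one-parameter calculus package (helper25)

`c = 4/3`, `q* = (4/9) e^{-1/3}`.
-/

set_option autoImplicit false

namespace Crest.Agent.Helper25

open Real MeasureTheory Set Filter Topology

/-- The extremal constant `q* = (4/9) e^{-1/3}`. -/
noncomputable def qstar : ℝ := 4 / 9 * Real.exp (-(1 / 3))

/-- (C1) one-spike family, regime `s ≥ 4/3` (valid for every `s > 0`): equality at `s = 2`. -/
theorem C1 (s : ℝ) (hs : 0 < s) :
    4 / 9 * Real.exp (-(1 / 3)) ≤ Real.exp (4 / (3 * s) - 1) * (s / (1 + s)) ^ 2 := by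
  set y : ℝ := 2 / (3 * s) - 1 / 3 with hy
  have h1 : 4 / (3 * s) - 1 = 2 * y + -(1 / 3) := by
    rw [hy]; field_simp; ring
  rw [h1, Real.exp_add]
  have h2 : Real.exp (2 * y) = Real.exp y ^ 2 := by
    rw [show (2 : ℝ) * y = y + y by ring, Real.exp_add]; ring
  rw [h2]
  have h3 : 1 + y ≤ Real.exp y := by linarith [Real.add_one_le_exp y]
  have h4 : 0 < 1 + y := by
    rw [hy]
    have : 0 < 2 / (3 * s) := by positivity
    linarith
  have h5 : (1 + y) ^ 2 ≤ Real.exp y ^ 2 := by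
    apply pow_le_pow_left₀ h4.le h3
  have h6 : (1 + y) * (s / (1 + s)) = 2 / 3 := by
    rw [hy]; field_simp; ring
  have h7 : (0 : ℝ) < Real.exp (-(1 / 3)) := Real.exp_pos _
  have h8 : 0 ≤ (s / (1 + s)) ^ 2 := by positivity
  calc 4 / 9 * Real.exp (-(1 / 3)) = ((1 + y) * (s / (1 + s))) ^ 2 * Real.exp (-(1 / 3)) := by
        rw [h6]; ring
    _ = (1 + y) ^ 2 * Real.exp (-(1 / 3)) * (s / (1 + s)) ^ 2 := by ring
    _ ≤ Real.exp y ^ 2 * Real.exp (-(1 / 3)) * (s / (1 + s)) ^ 2 := by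
        apply mul_le_mul_of_nonneg_right _ h8
        apply mul_le_mul_of_nonneg_right h5 h7.le

/-- `e^{-1/3} ≤ 0.716625`. -/
theorem exp_neg_third_le : Real.exp (-(1 / 3)) ≤ 28665 / 40000 := by
  have h := Real.sum_le_exp_of_nonneg (x := (1 / 3 : ℝ)) (by norm_num) 5
  have h' : (1.3955 : ℝ) ≤ Real.exp (1 / 3) := by
    refine le_trans ?_ h
    norm_num [Finset.sum_range_succ, Nat.factorial]
  rw [Real.exp_neg]
  rw [inv_le_comm₀ (Real.exp_pos _) (by norm_num)]
  refine le_trans ?_ h'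
  norm_num

/-- Taylor lower bound `1 + d + d²/2 + d³/6 ≤ e^d` for `d ≥ 0`. -/
theorem taylor3_le_exp (d : ℝ) (hd : 0 ≤ d) : 1 + d + d ^ 2 / 2 + d ^ 3 / 6 ≤ Real.exp d := by
  have h := Real.sum_le_exp_of_nonneg hd 4
  refine le_trans (le_of_eq ?_) h
  norm_num [Finset.sum_range_succ, Nat.factorial]

/-- the polynomial inequality behind (C2). -/
theorem C2_poly (s : ℝ) (hs : 0 ≤ s) (hs' : s ≤ 4 / 3) :
    7 / 3 + 7 * s / 3 - s ^ 2 ≤
      1363 / 2000 * (1 + s) ^ 2 *
        (1 + (4 / 3 - s) + (4 / 3 - s) ^ 2 / 2 + (4 / 3 - s) ^ 3 / 6) := by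
  have hd : 0 ≤ 4 / 3 - s := by linarith
  nlinarith [mul_nonneg hs hd, mul_nonneg (mul_nonneg hs hd) hd, mul_nonneg (mul_nonneg hs hd) hs,
    mul_nonneg (mul_nonneg (mul_nonneg hs hd) hd) hd, mul_nonneg (mul_nonneg (mul_nonneg hs hd) hs) hd,
    mul_nonneg (mul_nonneg (mul_nonneg hs hd) hs) hs, pow_nonneg hd 3, pow_nonneg hs 3,
    mul_nonneg (pow_nonneg hs 2) (pow_nonneg hd 3), mul_nonneg (pow_nonneg hs 3) (pow_nonneg hd 2),
    mul_nonneg hs (pow_nonneg hd 4), mul_nonneg hs (pow_nonneg hd 3)]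

/-- (C2) one-spike family, regime `0 ≤ s ≤ 4/3`. -/
theorem C2 (s : ℝ) (hs : 0 ≤ s) (hs' : s ≤ 4 / 3) :
    4 / 9 * Real.exp (-(1 / 3)) ≤
      1 - Real.exp (-(4 / 3 - s)) * (1 + (4 / 3 - s) / (1 + s) - s ^ 2 / (1 + s) ^ 2) := by
  have hd : 0 ≤ 4 / 3 - s := by linarith
  have h1s : 0 < 1 + s := by linarith
  have hT := taylor3_le_exp (4 / 3 - s) hd
  have hTpos : 0 < 1 + (4 / 3 - s) + (4 / 3 - s) ^ 2 / 2 + (4 / 3 - s) ^ 3 / 6 := by positivity
  have hP := C2_poly s hs hs'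
  have hPpos : 0 ≤ 7 / 3 + 7 * s / 3 - s ^ 2 := by nlinarith
  have hE := exp_neg_third_le
  have hrew : 1 + (4 / 3 - s) / (1 + s) - s ^ 2 / (1 + s) ^ 2
      = (7 / 3 + 7 * s / 3 - s ^ 2) / (1 + s) ^ 2 := by
    field_simp; ring
  rw [hrew]
  have hexp : Real.exp (-(4 / 3 - s)) ≤
      1 / (1 + (4 / 3 - s) + (4 / 3 - s) ^ 2 / 2 + (4 / 3 - s) ^ 3 / 6) := by
    rw [Real.exp_neg, ← one_div]
    exact one_div_le_one_div_of_le hTpos hT
  have hmain : Real.exp (-(4 / 3 - s)) * ((7 / 3 + 7 * s / 3 - s ^ 2) / (1 + s) ^ 2) ≤ 1363 / 2000 := by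
    calc Real.exp (-(4 / 3 - s)) * ((7 / 3 + 7 * s / 3 - s ^ 2) / (1 + s) ^ 2)
        ≤ 1 / (1 + (4 / 3 - s) + (4 / 3 - s) ^ 2 / 2 + (4 / 3 - s) ^ 3 / 6)
            * ((7 / 3 + 7 * s / 3 - s ^ 2) / (1 + s) ^ 2) := by
          apply mul_le_mul_of_nonneg_right hexp
          positivity
      _ ≤ 1363 / 2000 := by
          rw [one_div, inv_mul_eq_div, div_div, div_le_iff₀ (by positivity)]
          nlinarith [hP]
  linarith


/-- antiderivative of `v ↦ v e^{-κ v}`. -/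
theorem hasDerivAt_mul_exp_antideriv (κ : ℝ) (hκ : 0 < κ) (v : ℝ) :
    HasDerivAt (fun v : ℝ => -(Real.exp (-(κ * v)) * (v / κ + 1 / κ ^ 2)))
      (v * Real.exp (-(κ * v))) v := by
  have h1 : HasDerivAt (fun v : ℝ => -(κ * v)) (-κ) v := by
    have := (hasDerivAt_id v).const_mul (-κ)
    simp only [id, mul_one, neg_mul] at this
    exact this
  have h2 : HasDerivAt (fun v : ℝ => Real.exp (-(κ * v))) (Real.exp (-(κ * v)) * -κ) v :=
    (Real.hasDerivAt_exp _).comp v h1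
  have h3 : HasDerivAt (fun v : ℝ => v / κ + 1 / κ ^ 2) (1 / κ) v := by
    simpa using ((hasDerivAt_id v).div_const κ).add_const (1 / κ ^ 2)
  have h4 : HasDerivAt (fun v : ℝ => -(Real.exp (-(κ * v)) * (v / κ + 1 / κ ^ 2)))
      (-(Real.exp (-(κ * v)) * -κ * (v / κ + 1 / κ ^ 2) + Real.exp (-(κ * v)) * (1 / κ))) v :=
    (h2.mul h3).neg
  refine h4.congr_deriv ?_
  field_simp
  ring

theorem tendsto_mul_exp_antideriv (κ : ℝ) (hκ : 0 < κ) :
    Tendsto (fun v : ℝ => -(Real.exp (-(κ * v)) * (v / κ + 1 / κ ^ 2))) atTop (𝓝 0) := by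
  have hlin : Tendsto (fun v : ℝ => κ * v) atTop atTop := tendsto_id.const_mul_atTop hκ
  have h0 : Tendsto (fun v : ℝ => Real.exp (-(κ * v))) atTop (𝓝 0) :=
    Real.tendsto_exp_neg_atTop_nhds_zero.comp hlin
  have h1 : Tendsto (fun v : ℝ => (κ * v) ^ 1 * Real.exp (-(κ * v))) atTop (𝓝 0) :=
    (Real.tendsto_pow_mul_exp_neg_atTop_nhds_zero 1).comp hlin
  have h2 : Tendsto (fun v : ℝ => -((1 / κ ^ 2) * ((κ * v) ^ 1 * Real.exp (-(κ * v)))
      + (1 / κ ^ 2) * Real.exp (-(κ * v)))) atTop (𝓝 0) := by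
    have := ((h1.const_mul (1 / κ ^ 2)).add (h0.const_mul (1 / κ ^ 2))).neg
    simpa using this
  refine h2.congr (fun v => ?_)
  field_simp

/-- `∫_a^∞ v e^{-κ v} dv = e^{-κ a} (a/κ + 1/κ²)` for `κ > 0`, `a ≥ 0`. -/
theorem integrableOn_Ioi_mul_exp (κ a : ℝ) (hκ : 0 < κ) (ha : 0 ≤ a) :
    IntegrableOn (fun v : ℝ => v * Real.exp (-(κ * v))) (Set.Ioi a) := by
  refine integrableOn_Ioi_deriv_of_nonneg' (l := 0)
    (fun x _ => hasDerivAt_mul_exp_antideriv κ hκ x) (fun x hx => ?_)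
    (tendsto_mul_exp_antideriv κ hκ)
  have : 0 ≤ x := le_trans ha (le_of_lt hx)
  positivity

theorem integral_Ioi_mul_exp (κ a : ℝ) (hκ : 0 < κ) (ha : 0 ≤ a) :
    ∫ v in Set.Ioi a, v * Real.exp (-(κ * v)) = Real.exp (-(κ * a)) * (a / κ + 1 / κ ^ 2) := by
  rw [integral_Ioi_of_hasDerivAt_of_nonneg' (l := 0)
    (fun x _ => hasDerivAt_mul_exp_antideriv κ hκ x) (fun x hx => ?_)
    (tendsto_mul_exp_antideriv κ hκ)]
  · ring
  · have : 0 ≤ x := le_trans ha (le_of_lt hx)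
    positivity


/-- the weight `w v = v e^{-v}` is integrable on `(a, ∞)`, `a ≥ 0`. -/
theorem integrableOn_Ioi_w (a : ℝ) (ha : 0 ≤ a) :
    IntegrableOn (fun v : ℝ => v * Real.exp (-v)) (Set.Ioi a) := by
  have := integrableOn_Ioi_mul_exp 1 a one_pos ha
  simpa using this

theorem integral_Ioi_w (a : ℝ) (ha : 0 ≤ a) :
    ∫ v in Set.Ioi a, v * Real.exp (-v) = Real.exp (-a) * (a + 1) := by
  have := integral_Ioi_mul_exp 1 a one_pos ha
  simpa using this

/-- (C6a) total mass of the weight. -/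
theorem integral_Ioi_zero_w : ∫ v in Set.Ioi (0 : ℝ), v * Real.exp (-v) = 1 := by
  rw [integral_Ioi_w 0 le_rfl]; simp

/-- comparison integral: `Psi m s = ∫_0^∞ w(v) S*_{m,s}(v) dv`, `S*_{m,s}(v) = min 1 (exp (-(v-m)/s))`. -/
noncomputable def Psi (m s : ℝ) : ℝ :=
  ∫ v in Set.Ioi 0, v * Real.exp (-v) * min 1 (Real.exp (-(v - m) / s))

theorem continuous_Psi_integrand (m s : ℝ) :
    Continuous (fun v : ℝ => v * Real.exp (-v) * min 1 (Real.exp (-(v - m) / s))) := by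
  apply Continuous.mul
  · fun_prop
  · apply Continuous.min continuous_const
    fun_prop

/-- (C0) integrability of the integrand of `Psi` (any `m`, `s`). -/
theorem integrableOn_Psi_integrand (m s : ℝ) :
    IntegrableOn (fun v : ℝ => v * Real.exp (-v) * min 1 (Real.exp (-(v - m) / s))) (Set.Ioi 0) := by
  refine Integrable.mono' (integrableOn_Ioi_w 0 le_rfl)
    (continuous_Psi_integrand m s).aestronglyMeasurable ?_
  refine (ae_restrict_mem measurableSet_Ioi).mono (fun v hv => ?_)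
  have hv0 : (0 : ℝ) < v := hv
  have h1 : 0 ≤ min 1 (Real.exp (-(v - m) / s)) := le_min zero_le_one (Real.exp_pos _).le
  have h2 : min 1 (Real.exp (-(v - m) / s)) ≤ 1 := min_le_left _ _
  have h3 : 0 ≤ v * Real.exp (-v) := by positivity
  rw [Real.norm_eq_abs, abs_of_nonneg (mul_nonneg h3 h1)]
  calc v * Real.exp (-v) * min 1 (Real.exp (-(v - m) / s)) ≤ v * Real.exp (-v) * 1 :=
        mul_le_mul_of_nonneg_left h2 h3
    _ = v * Real.exp (-v) := mul_one _

/-- (C1a) closed form of `Psi` for `m ≤ 0`. -/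
theorem Psi_of_nonpos (m s : ℝ) (hs : 0 < s) (hm : m ≤ 0) :
    Psi m s = Real.exp (m / s) * (s / (s + 1)) ^ 2 := by
  have hκ : (0 : ℝ) < 1 + 1 / s := by positivity
  have hcongr : ∀ v ∈ Set.Ioi (0 : ℝ),
      v * Real.exp (-v) * min 1 (Real.exp (-(v - m) / s))
        = Real.exp (m / s) * (v * Real.exp (-((1 + 1 / s) * v))) := by
    intro v hv
    have hv0 : (0 : ℝ) < v := hv
    have hle : Real.exp (-(v - m) / s) ≤ 1 := by
      rw [Real.exp_le_one_iff]
      apply div_nonpos_of_nonpos_of_nonneg _ hs.le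
      linarith
    rw [min_eq_right hle]
    have : Real.exp (-v) * Real.exp (-(v - m) / s)
        = Real.exp (m / s) * Real.exp (-((1 + 1 / s) * v)) := by
      rw [← Real.exp_add, ← Real.exp_add]
      congr 1
      field_simp
      ring
    calc v * Real.exp (-v) * Real.exp (-(v - m) / s)
        = v * (Real.exp (-v) * Real.exp (-(v - m) / s)) := by ring
      _ = Real.exp (m / s) * (v * Real.exp (-((1 + 1 / s) * v))) := by rw [this]; ring
  unfold Psi
  rw [setIntegral_congr_fun measurableSet_Ioi hcongr, integral_const_mul,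
    integral_Ioi_mul_exp _ 0 hκ le_rfl]
  have : (s / (s + 1)) ^ 2 = 1 / (1 + 1 / s) ^ 2 := by
    field_simp
  rw [this]
  simp

/-- (C1b) closed form of `Psi` for `m ≥ 0`. -/
theorem Psi_of_nonneg (m s : ℝ) (hs : 0 < s) (hm : 0 ≤ m) :
    Psi m s = 1 - (1 + m) * Real.exp (-m)
      + Real.exp (-m) * ((s / (s + 1)) ^ 2 + m * s / (s + 1)) := by
  have hκ : (0 : ℝ) < 1 + 1 / s := by positivity
  have hint := integrableOn_Psi_integrand m s
  have hsplit : Set.Ioc (0 : ℝ) m ∪ Set.Ioi m = Set.Ioi 0 := Set.Ioc_union_Ioi_eq_Ioi hm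
  have hdisj : Disjoint (Set.Ioc (0 : ℝ) m) (Set.Ioi m) :=
    Set.disjoint_left.mpr (fun x hx hx' => absurd hx.2 (not_le.mpr hx'))
  -- the piece on `(0, m]`
  have h1 : ∫ v in Set.Ioc (0 : ℝ) m, v * Real.exp (-v) * min 1 (Real.exp (-(v - m) / s))
      = 1 - Real.exp (-m) * (m + 1) := by
    have hc : ∀ v ∈ Set.Ioc (0 : ℝ) m,
        v * Real.exp (-v) * min 1 (Real.exp (-(v - m) / s)) = v * Real.exp (-v) := by
      intro v hv
      have hge : 1 ≤ Real.exp (-(v - m) / s) := by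
        rw [Real.one_le_exp_iff]
        apply div_nonneg _ hs.le
        linarith [hv.2]
      rw [min_eq_left hge, mul_one]
    rw [setIntegral_congr_fun measurableSet_Ioc hc]
    have hw0 := integrableOn_Ioi_w 0 le_rfl
    have hu := setIntegral_union hdisj measurableSet_Ioi
      (hw0.mono_set (hsplit ▸ Set.subset_union_left)) (integrableOn_Ioi_w m hm)
    rw [hsplit, integral_Ioi_zero_w, integral_Ioi_w m hm] at hu
    linarith
  -- the piece on `(m, ∞)`
  have h2 : ∫ v in Set.Ioi m, v * Real.exp (-v) * min 1 (Real.exp (-(v - m) / s))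
      = Real.exp (m / s) * (Real.exp (-((1 + 1 / s) * m)) * (m / (1 + 1 / s) + 1 / (1 + 1 / s) ^ 2)) := by
    have hc : ∀ v ∈ Set.Ioi m,
        v * Real.exp (-v) * min 1 (Real.exp (-(v - m) / s))
          = Real.exp (m / s) * (v * Real.exp (-((1 + 1 / s) * v))) := by
      intro v hv
      have hvm : m < v := hv
      have hle : Real.exp (-(v - m) / s) ≤ 1 := by
        rw [Real.exp_le_one_iff]
        apply div_nonpos_of_nonpos_of_nonneg _ hs.le
        linarith
      rw [min_eq_right hle]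
      have : Real.exp (-v) * Real.exp (-(v - m) / s)
          = Real.exp (m / s) * Real.exp (-((1 + 1 / s) * v)) := by
        rw [← Real.exp_add, ← Real.exp_add]
        congr 1
        field_simp
        ring
      calc v * Real.exp (-v) * Real.exp (-(v - m) / s)
          = v * (Real.exp (-v) * Real.exp (-(v - m) / s)) := by ring
        _ = Real.exp (m / s) * (v * Real.exp (-((1 + 1 / s) * v))) := by rw [this]; ring
    rw [setIntegral_congr_fun measurableSet_Ioi hc, integral_const_mul,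
      integral_Ioi_mul_exp _ m hκ hm]
  have hu := setIntegral_union hdisj measurableSet_Ioi
    (hint.mono_set (hsplit ▸ Set.subset_union_left)) (hint.mono_set (hsplit ▸ Set.subset_union_right))
  rw [hsplit] at hu
  unfold Psi
  rw [hu, h1, h2]
  have he : Real.exp (m / s) * Real.exp (-((1 + 1 / s) * m)) = Real.exp (-m) := by
    rw [← Real.exp_add]
    congr 1
    field_simp
    ring
  have hr1 : m / (1 + 1 / s) = m * s / (s + 1) := by
    field_simp
  have hr2 : 1 / (1 + 1 / s) ^ 2 = (s / (s + 1)) ^ 2 := by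
    field_simp
  rw [← mul_assoc, he, hr1, hr2]
  ring

/-- (C4) the one-parameter inequality: every mean-`4/3` shifted exponential comparison function
has `Psi ≥ q* = (4/9) e^{-1/3}` (equality at `s = 2`). -/
theorem Psi_ge_qstar (s : ℝ) (hs : 0 < s) :
    4 / 9 * Real.exp (-(1 / 3)) ≤ Psi (4 / 3 - s) s := by
  rcases le_total s (4 / 3) with h | h
  · rw [Psi_of_nonneg _ s hs (by linarith)]
    have h2 := C2 s hs.le h
    have h1s : (0 : ℝ) < 1 + s := by linarith
    have e : 1 - (1 + (4 / 3 - s)) * Real.exp (-(4 / 3 - s))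
        + Real.exp (-(4 / 3 - s)) * ((s / (s + 1)) ^ 2 + (4 / 3 - s) * s / (s + 1))
        = 1 - Real.exp (-(4 / 3 - s)) * (1 + (4 / 3 - s) / (1 + s) - s ^ 2 / (1 + s) ^ 2) := by
      field_simp
      ring
    rw [e]
    exact h2
  · rw [Psi_of_nonpos _ s hs (by linarith)]
    have h1 := C1 s hs
    have e : (4 / 3 - s) / s = 4 / (3 * s) - 1 := by
      field_simp
    rw [e, add_comm s 1]
    exact h1

end Crest.Agent.Helper25
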