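import Mathlib
import Crest.Agent.Helper49.S0423Chord
import Crest.Agent.Helper25.S0423Calc

/-!
# S0423 — bridge: the one-parameter inequality (C4) for helper49's `Psi`
-/

set_option autoImplicit false

namespace Crest.Agent.Helper25

open MeasureTheory Set

/-- helper49's `Psi` (integral over `ℝ` with the weight `wgt` vanishing on `v ≤ 0`) equals
helper25's `Psi` (integral over `Ioi 0`). -/
theorem Psi49_eq (m s : ℝ) : Crest.Agent.Helper49.Psi m s = Psi m s := by
  unfold Crest.Agent.Helper49.Psi Psi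
  rw [← integral_indicator measurableSet_Ioi]
  congr 1
  funext v
  by_cases hv : 0 < v
  · have hmem : v ∈ Set.Ioi (0 : ℝ) := hv
    rw [Set.indicator_of_mem hmem]
    simp [Crest.Agent.Helper49.wgt, Crest.Agent.Helper49.expSurv, hv]
  · have hmem : v ∉ Set.Ioi (0 : ℝ) := hv
    rw [Set.indicator_of_notMem hmem]
    simp [Crest.Agent.Helper49.wgt, hv]

/-- (C4) for helper49's `Psi`: the hypothesis `hΨ` of `Helper49.chord_lemma`
with `c = 4/3`, `qs = 4/9 * exp (-(1/3))`. -/
theorem Psi49_ge_qstar : ∀ s : ℝ, 0 < s →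
    4 / 9 * Real.exp (-(1 / 3)) ≤ Crest.Agent.Helper49.Psi (4 / 3 - s) s := by
  intro s hs
  rw [Psi49_eq]
  exact Psi_ge_qstar s hs

end Crest.Agent.Helper25
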