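import Mathlib

/-!
# S0423 — the algebra step of the direct 1-D core (helper75's track), by helper25

`p = S 0`, `a = ∫_0^∞ S`, `b = ∫_0^∞ e^{-t} S t dt`, `d = ∫_0^∞ v e^{-v} S v dv`.
-/

set_option autoImplicit false

namespace Crest.Agent.Helper25

/-- `5/21 ≤ e^{-4/3}` (i.e. `e^{4/3} ≤ 21/5`). -/
theorem exp_neg_four_thirds_ge : (5 : ℝ) / 21 ≤ Real.exp (-(4 / 3)) := by
  have h := Real.add_one_le_exp (-(1 / 12) : ℝ)
  have h2 : ((11 : ℝ) / 12) ^ 16 ≤ Real.exp (-(1 / 12)) ^ 16 :=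
    pow_le_pow_left₀ (by norm_num) (by linarith) 16
  have h3 : Real.exp (-(1 / 12)) ^ 16 = Real.exp (-(4 / 3)) := by
    rw [← Real.exp_nat_mul]; congr 1; norm_num
  rw [h3] at h2
  refine le_trans ?_ h2
  norm_num

/-- `1 + x - x² ≤ (1 + x) e^{-x}` for `x ≥ 4/3`, i.e. `1 - e^{-x} ≤ x²/(1+x)`. -/
theorem one_add_sub_sq_le (x : ℝ) (hx : 4 / 3 ≤ x) :
    1 + x - x ^ 2 ≤ (1 + x) * Real.exp (-x) := by
  rcases le_or_gt (7 / 3) x with h | h
  · have h0 : 0 ≤ (1 + x) * Real.exp (-x) :=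
      mul_nonneg (by linarith) (Real.exp_pos _).le
    nlinarith
  · have hu0 : 0 ≤ x - 4 / 3 := by linarith
    have hu1 : x - 4 / 3 < 1 := by linarith
    have he : Real.exp (-x) = Real.exp (-(4 / 3)) * Real.exp (-(x - 4 / 3)) := by
      rw [← Real.exp_add]; congr 1; ring
    have h1 : 1 - (x - 4 / 3) ≤ Real.exp (-(x - 4 / 3)) := by
      linarith [Real.add_one_le_exp (-(x - 4 / 3))]
    have h2 := exp_neg_four_thirds_ge
    have h3 : 5 / 21 * (1 - (x - 4 / 3)) ≤ Real.exp (-(4 / 3)) * Real.exp (-(x - 4 / 3)) :=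
      mul_le_mul h2 h1 (by linarith) (Real.exp_pos _).le
    rw [he]
    have h4 : (1 + x) * (5 / 21 * (1 - (x - 4 / 3)))
        ≤ (1 + x) * (Real.exp (-(4 / 3)) * Real.exp (-(x - 4 / 3))) :=
      mul_le_mul_of_nonneg_left h3 (by linarith)
    refine le_trans ?_ h4
    nlinarith [mul_nonneg hu0 hu0]

/-- The algebra step of the direct core proof. -/
theorem core_algebra (p a b d : ℝ) (hp : 0 < p) (hp1 : p ≤ 1) (ha : 0 < a)
    (h1 : 4 / 3 * p ≤ a * (1 + Real.log p))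
    (h5 : p * (a - b) ≤ a * b)
    (h2 : b * (a - b) ≤ a * d)
    (h4 : b ≤ p * (1 - Real.exp (-(a / p)))) :
    4 / 9 * Real.exp (-(1 / 3)) ≤ d := by
  have hL : Real.log p ≤ 0 := Real.log_nonpos hp.le hp1
  have hpexp : p = Real.exp (Real.log p) := (Real.exp_log hp).symm
  generalize Real.log p = L at h1 hL hpexp
  have hy0 : 0 < 1 + L := by
    by_contra hcon
    rw [not_lt] at hcon
    have : a * (1 + L) ≤ 0 := mul_nonpos_of_nonneg_of_nonpos ha.le hcon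
    nlinarith
  have hap : 0 < a + p := by linarith
  -- x = a / p ≥ 4/3
  have hx : 4 / 3 ≤ a / p := by
    rw [le_div_iff₀ hp]
    nlinarith
  -- b (a + p) ≤ a ^ 2
  have hb_up : b * (a + p) ≤ a ^ 2 := by
    have h := one_add_sub_sq_le (a / p) hx
    have h' : (1 + a / p) * (1 - Real.exp (-(a / p))) ≤ (a / p) ^ 2 := by nlinarith
    have hpos : 0 < 1 + a / p := by positivity
    have h4' : b * (1 + a / p) ≤ p * ((1 + a / p) * (1 - Real.exp (-(a / p)))) := by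
      calc b * (1 + a / p) ≤ p * (1 - Real.exp (-(a / p))) * (1 + a / p) :=
            mul_le_mul_of_nonneg_right h4 hpos.le
        _ = p * ((1 + a / p) * (1 - Real.exp (-(a / p)))) := by ring
    have h4'' : b * (1 + a / p) ≤ p * (a / p) ^ 2 :=
      le_trans h4' (mul_le_mul_of_nonneg_left h' hp.le)
    have e1 : b * (1 + a / p) * p = b * (a + p) := by field_simp; ring
    have e2 : p * (a / p) ^ 2 * p = a ^ 2 := by field_simp
    have := mul_le_mul_of_nonneg_right h4'' hp.le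
    rw [e1, e2] at this
    exact this
  -- a p ≤ b (a + p)
  have hb_lo : a * p ≤ b * (a + p) := by nlinarith
  have hprod : a ^ 3 * p ≤ b * (a - b) * (a + p) ^ 2 := by
    nlinarith [mul_nonneg (sub_nonneg.mpr hb_lo) (sub_nonneg.mpr hb_up)]
  have hd : a ^ 2 * p ≤ d * (a + p) ^ 2 := by
    have h3 : a ^ 3 * p ≤ a * d * (a + p) ^ 2 :=
      le_trans hprod (mul_le_mul_of_nonneg_right h2 (by positivity))
    have h3' : a * (a ^ 2 * p) ≤ a * (d * (a + p) ^ 2) := by nlinarith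
    exact le_of_mul_le_mul_left h3' ha
  -- a (3 (1+L) + 4) ≥ 4 (a + p)
  have hq : 4 * (a + p) ≤ a * (3 * (1 + L) + 4) := by nlinarith
  have hq0 : 0 < 3 * (1 + L) + 4 := by linarith
  have hsq : (4 * (a + p)) ^ 2 ≤ (a * (3 * (1 + L) + 4)) ^ 2 :=
    pow_le_pow_left₀ (by positivity) hq 2
  have hd2 : 16 * p ≤ d * (3 * (1 + L) + 4) ^ 2 := by
    have hA : 16 * p * (a + p) ^ 2 * a ^ 2 ≤ d * (3 * (1 + L) + 4) ^ 2 * (a + p) ^ 2 * a ^ 2 := by
      have hp16 : 0 ≤ p := hp.le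
      have t1 : p * (4 * (a + p)) ^ 2 ≤ p * (a * (3 * (1 + L) + 4)) ^ 2 :=
        mul_le_mul_of_nonneg_left hsq hp16
      have t2 : a ^ 2 * p * (3 * (1 + L) + 4) ^ 2 ≤ d * (a + p) ^ 2 * (3 * (1 + L) + 4) ^ 2 :=
        mul_le_mul_of_nonneg_right hd (by positivity)
      nlinarith
    have hpos : 0 < (a + p) ^ 2 * a ^ 2 := by positivity
    have hA' : 16 * p * ((a + p) ^ 2 * a ^ 2) ≤ d * (3 * (1 + L) + 4) ^ 2 * ((a + p) ^ 2 * a ^ 2) := by
      nlinarith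
    exact le_of_mul_le_mul_right hA' hpos
  -- (3 y + 4)^2 ≤ 36 exp (y - 2/3)
  have hexp : (3 * (1 + L) + 4) ^ 2 ≤ 36 * Real.exp (1 + L - 2 / 3) := by
    have ht := Real.add_one_le_exp ((1 + L) / 2 - 1 / 3)
    have h6 : 3 * (1 + L) + 4 ≤ 6 * Real.exp ((1 + L) / 2 - 1 / 3) := by linarith
    have h62 : (3 * (1 + L) + 4) ^ 2 ≤ (6 * Real.exp ((1 + L) / 2 - 1 / 3)) ^ 2 :=
      pow_le_pow_left₀ hq0.le h6 2
    have e : (6 * Real.exp ((1 + L) / 2 - 1 / 3)) ^ 2 = 36 * Real.exp (1 + L - 2 / 3) := by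
      rw [mul_pow, ← Real.exp_nat_mul]
      norm_num
      ring
    rw [e] at h62
    exact h62
  have hpe : p = Real.exp (1 + L - 2 / 3) * Real.exp (-(1 / 3)) := by
    rw [← Real.exp_add, hpexp]
    congr 1
    ring
  have hE : 0 < Real.exp (1 + L - 2 / 3) := Real.exp_pos _
  have hd0 : 0 < d := by
    by_contra hcon
    rw [not_lt] at hcon
    have : d * (3 * (1 + L) + 4) ^ 2 ≤ 0 := mul_nonpos_of_nonpos_of_nonneg hcon (by positivity)
    nlinarith
  have hfin : 16 * (Real.exp (1 + L - 2 / 3) * Real.exp (-(1 / 3)))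
      ≤ d * (36 * Real.exp (1 + L - 2 / 3)) := by
    calc 16 * (Real.exp (1 + L - 2 / 3) * Real.exp (-(1 / 3))) = 16 * p := by rw [← hpe]
      _ ≤ d * (3 * (1 + L) + 4) ^ 2 := hd2
      _ ≤ d * (36 * Real.exp (1 + L - 2 / 3)) := mul_le_mul_of_nonneg_left hexp hd0.le
  have hfin' : (4 / 9 * Real.exp (-(1 / 3))) * (36 * Real.exp (1 + L - 2 / 3))
      ≤ d * (36 * Real.exp (1 + L - 2 / 3)) := by
    calc (4 / 9 * Real.exp (-(1 / 3))) * (36 * Real.exp (1 + L - 2 / 3))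
        = 16 * (Real.exp (1 + L - 2 / 3) * Real.exp (-(1 / 3))) := by ring
      _ ≤ d * (36 * Real.exp (1 + L - 2 / 3)) := hfin
  exact le_of_mul_le_mul_right hfin' (by positivity)

end Crest.Agent.Helper25
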